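import Vale.Agent.P032.S5.H360.Silent

/-!
# P032: nappes with three remaining colours

`Irr.nappe_free` : the nappes perpendicular to a letter have none of its colours.
`Irr.nappe` : if three colours `m, c, d` remain and `{m, c}`, `{m, d}` are broken, then each nappe
is pure `m` or inside `{c, d}`.
`Irr.side_out`, `Irr.side_in` : a pure ray of colour `p` at `z` and an exact pair `{c, p}` at `y`:
the colour `c` is near `z` on the other side of the circle about `y`.
-/

open Set Filter Topology Metric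

noncomputable section

namespace Vale.Agent.P032.Six

variable {k : ℕ} {U : Fin k → Set ℂ} {T : ℂ → Set (Fin k)}

namespace Irr

/-- the nappes perpendicular to a letter have none of its colours -/
theorem nappe_free (h : Irr U T) {z n : ℂ} {P : Set (Fin k)} (hn1 : ‖n‖ = 1)
    (hJ : ∀ᶠ q in 𝓝[sphere z 1] (z + n), P ⊆ Pal U q) :
    ∀ᶠ a : ℝ × ℝ in 𝓝 (0, 0), a.1 ≠ 0 → ∀ i ∈ P,
      i ∉ Pal U (z + a.1 * ((Complex.I + a.2) * n)) := by
  let f : ℝ × ℝ → ℂ := fun a => z + a.1 * ((Complex.I + a.2) * n)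
  have hf : Continuous f := by
    simp only [f]
    fun_prop
  have hf0 : f (0, 0) = z := by simp [f]
  have tf : Tendsto f (𝓝 (0, 0)) (𝓝 z) := by
    have := hf.tendsto (0, 0)
    rwa [hf0] at this
  have tg : Tendsto (fun a : ℝ × ℝ => z + slv 1 n a.1 a.2) (𝓝 (0, 0)) (𝓝 (z + n)) := by
    have hc : Continuous fun a : ℝ × ℝ => z + slv 1 n a.1 a.2 :=
      continuous_const.add (continuous_slv 1 n)
    have := hc.tendsto (0, 0)
    simp only [slv_zero] at this
    simpa using this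
  have hreg : ∀ᶠ a : ℝ × ℝ in 𝓝 (0, 0), a.1 ^ 2 / 4 ≤ 1 / (1 + a.2 ^ 2) := by
    have h1 : Continuous fun a : ℝ × ℝ => a.1 ^ 2 / 4 := by fun_prop
    have h2 : Continuous fun a : ℝ × ℝ => 1 / (1 + a.2 ^ 2) :=
      continuous_const.div (by fun_prop) fun a => by positivity
    have h3 := h1.tendsto (0, 0)
    have h4 := h2.tendsto (0, 0)
    have := h3.eventually_lt h4 (by norm_num)
    exact this.mono fun a ha => ha.le
  have hfar : ∀ᶠ a : ℝ × ℝ in 𝓝 (0, 0), dist (f a) z < 1 := by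
    have := tf.eventually (ball_mem_nhds z one_pos)
    exact this
  have hJ' := eventually_eventually_nhdsWithin.2 hJ
  have tg' : Tendsto (fun a : ℝ × ℝ => z + slv 1 n a.1 a.2) (𝓝 (0, 0))
      (𝓝[sphere z 1] (z + n)) := by
    refine tendsto_nhdsWithin_iff.2 ⟨tg, ?_⟩
    filter_upwards [hreg] with a ha
    rw [mem_sphere, dist_eq_norm, add_sub_cancel_left]
    exact norm_slv (by norm_num) hn1 ha
  filter_upwards [hreg, hfar, tg'.eventually hJ'] with a h1 h2 h3 ha i hi
  have hfz : f a ≠ z := by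
    intro hcon
    have h4 : (a.1 : ℂ) * ((Complex.I + a.2) * n) = 0 := by
      have : f a - z = 0 := by rw [hcon]; ring
      simpa [f] using this
    have hn0 : n ≠ 0 := by
      intro h0
      rw [h0, norm_zero] at hn1
      exact zero_ne_one hn1
    have hI : Complex.I + (a.2 : ℂ) ≠ 0 := by
      intro h0
      have := congrArg Complex.im h0
      simp at this
    rcases mul_eq_zero.1 h4 with h5 | h5
    · exact ha (by exact_mod_cast h5)
    · rcases mul_eq_zero.1 h5 with h6 | h6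
      · exact hI h6
      · exact hn0 h6
  refine h.mx.sweep_notMem (z := z) (q := z + slv 1 n a.1 a.2) (w := f a) ?_ h3 ?_
    (Ne.symm hfz) ?_ hi
  · rw [dist_eq_norm, add_sub_cancel_left]
    exact norm_slv (by norm_num) hn1 h1
  · rw [dist_eq_norm]
    have e : f a - (z + slv 1 n a.1 a.2) =
        (a.1 : ℂ) * ((Complex.I + a.2) * n) - slv 1 n a.1 a.2 := by
      simp only [f]; ring
    rw [e]
    exact norm_slv_sub (by norm_num) hn1 h1
  · intro h5
    have h6 : f a - z = 2 * slv 1 n a.1 a.2 := by linear_combination h5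
    have h7 : dist (f a) z = 2 := by
      rw [dist_eq_norm, h6, norm_mul, norm_slv (by norm_num) hn1 h1]; simp
    linarith

/-- the point of the nappe `s` (`s = ±1`) -/
def nap (z n : ℂ) (s t r : ℝ) : ℂ := z + ((s * t : ℝ) : ℂ) * ((Complex.I + r) * n)

/-- **Nappes.** -/
theorem nappe (h : Irr U T) {z n : ℂ} {P : Set (Fin k)} {m c d : Fin k} (hn1 : ‖n‖ = 1)
    (hJ : ∀ᶠ q in 𝓝[sphere z 1] (z + n), P ⊆ Pal U q) (hK : T z ⊆ P ∪ {m, c, d})
    (hmc : m ≠ c) (hmd : m ≠ d) {qc qd : ℂ} (hqc : dist qc z = 1) (hTc : T qc = {m, c})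
    (hqd : dist qd z = 1) (hTd : T qd = {m, d}) :
    ∃ δ > 0, ∀ s : ℝ, (s = 1 ∨ s = -1) →
      (∀ t r : ℝ, 0 < t → t < δ → |r| < δ → T (nap z n s t r) = {m}) ∨
      ∀ t r : ℝ, 0 < t → t < δ → |r| < δ → T (nap z n s t r) ⊆ {c, d} := by
  let f : ℝ × ℝ → ℂ := fun a => z + a.1 * ((Complex.I + a.2) * n)
  have hf : Continuous f := by
    simp only [f]
    fun_prop
  have hf0 : f (0, 0) = z := by simp [f]
  have tf : Tendsto f (𝓝 (0, 0)) (𝓝 z) := by
    have := hf.tendsto (0, 0)
    rwa [hf0] at this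
  have hgood : ∀ᶠ a : ℝ × ℝ in 𝓝 (0, 0), a.1 ≠ 0 → T (f a) = {m} ∨
      (m ∉ T (f a) ∧ T (f a) ⊆ {c, d}) := by
    filter_upwards [h.nappe_free hn1 hJ, tf.eventually (h.nhd z),
      tf.eventually (h.no_layer hqc), tf.eventually (h.no_layer hqd)] with a h1 h2 h3 h4 ha
    have hsub : T (f a) ⊆ {m, c, d} := by
      intro i hi
      rcases hK (h2 hi) with h6 | h6
      · exact absurd (h.sub _ hi) (h1 ha i h6)
      · exact h6
    have hcard : (T (f a)).ncard ≤ 3 := by
      refine (Set.ncard_le_ncard hsub (Set.toFinite _)).trans ?_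
      have e1 := Set.ncard_insert_le m ({c, d} : Set (Fin k))
      have e2 := Set.ncard_insert_le c ({d} : Set (Fin k))
      rw [Set.ncard_singleton] at e2
      omega
    rw [hTc] at h3
    rw [hTd] at h4
    by_cases hm : m ∈ T (f a)
    · left
      refine Subset.antisymm (fun i hi => ?_) (by rintro i rfl; exact hm)
      rcases hsub hi with h5 | h5 | h5
      · exact h5
      · exfalso
        have := h3 (by rintro j (rfl | rfl) <;> [exact hm; exact h5 ▸ hi])
        omega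
      · exfalso
        have h5' : i = d := h5
        have := h4 (by rintro j (rfl | rfl) <;> [exact hm; exact h5' ▸ hi])
        omega
    · right
      refine ⟨hm, fun i hi => ?_⟩
      rcases hsub hi with h5 | h5
      · exact absurd (h5 ▸ hi) hm
      · exact h5
  obtain ⟨δ, hδ, hball⟩ := Metric.eventually_nhds_iff.1 hgood
  have hgood' : ∀ t r : ℝ, |t| < δ → |r| < δ → t ≠ 0 → T (f (t, r)) = {m} ∨
      (m ∉ T (f (t, r)) ∧ T (f (t, r)) ⊆ {c, d}) := by
    intro t r ht hr ht0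
    refine hball ?_ ht0
    rw [Prod.dist_eq]
    simpa using ⟨ht, hr⟩
  refine ⟨δ, hδ, fun s hs => ?_⟩
  have hs0 : s ≠ 0 := by rcases hs with rfl | rfl <;> norm_num
  have hsa : |s| = 1 := by rcases hs with rfl | rfl <;> norm_num
  let F : ℝ × ℝ → ℂ := fun a => nap z n s a.1 a.2
  have hF : Continuous F := by
    simp only [F, nap]
    fun_prop
  have hFf : ∀ a : ℝ × ℝ, F a = f (s * a.1, a.2) := fun a => rfl
  have hR : IsPreconnected (Ioo (0 : ℝ) δ ×ˢ Ioo (-δ) δ) :=
    isPreconnected_Ioo.prod isPreconnected_Ioo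
  have hgR : ∀ a ∈ Ioo (0 : ℝ) δ ×ˢ Ioo (-δ) δ, T (F a) = {m} ∨
      (m ∉ T (F a) ∧ T (F a) ⊆ {c, d}) := by
    rintro ⟨t, r⟩ ⟨ht, hr⟩
    have ht : 0 < t ∧ t < δ := ht
    rw [hFf]
    refine hgood' _ _ ?_ (abs_lt.2 hr) (mul_ne_zero hs0 ht.1.ne')
    rw [abs_mul, hsa, one_mul, abs_of_pos ht.1]
    exact ht.2
  by_cases hall : ∃ a ∈ Ioo (0 : ℝ) δ ×ˢ Ioo (-δ) δ, m ∈ T (F a)
  · left
    intro t r ht0 ht hr
    rcases hgR (t, r) ⟨⟨ht0, ht⟩, abs_lt.1 hr⟩ with h1 | h1
    · exact h1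
    · exfalso
      obtain ⟨a, haR, ha⟩ := hall
      have hcd : IsClosed {a | ∃ i ∈ ({c, d} : Set (Fin k)), i ∈ T (F a)} := by
        have e : {a | ∃ i ∈ ({c, d} : Set (Fin k)), i ∈ T (F a)} =
            {a | c ∈ T (F a)} ∪ {a | d ∈ T (F a)} := by
          ext a; simp
        rw [e]
        exact ((h.closed c).preimage hF).union ((h.closed d).preimage hF)
      obtain ⟨b, hbR, hb1, hb2⟩ := isPreconnected_closed_iff.1 hR {a | m ∈ T (F a)}
        {a | ∃ i ∈ ({c, d} : Set (Fin k)), i ∈ T (F a)} ((h.closed m).preimage hF) hcd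
        (fun a ha => by
          rcases hgR a ha with h2 | h2
          · left; show m ∈ T (F a); rw [h2]; rfl
          · right
            obtain ⟨i, hi⟩ := h.ne (F a)
            exact ⟨i, h2.2 hi, hi⟩)
        ⟨a, haR, ha⟩ ⟨(t, r), ⟨⟨ht0, ht⟩, abs_lt.1 hr⟩, by
          obtain ⟨i, hi⟩ := h.ne (F (t, r))
          exact ⟨i, h1.2 hi, hi⟩⟩
      have hb1' : m ∈ T (F b) := hb1
      obtain ⟨i, hi, hib⟩ := hb2
      rcases hgR b hbR with h2 | h2
      · rw [h2] at hib
        have him : i = m := hib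
        rcases hi with h4 | h4
        · exact hmc (him ▸ h4)
        · exact hmd (him ▸ h4)
      · exact h2.1 hb1'
  · right
    intro t r ht0 ht hr
    rcases hgR (t, r) ⟨⟨ht0, ht⟩, abs_lt.1 hr⟩ with h1 | h1
    · exact absurd ⟨(t, r), ⟨⟨ht0, ht⟩, abs_lt.1 hr⟩, by rw [h1]; rfl⟩ hall
    · exact h1.2

theorem nap_zero (z n : ℂ) (s r : ℝ) : nap z n s 0 r = z := by simp [nap]

theorem dist_ray {z b : ℂ} (hb : ‖b‖ = 1) (x : ℂ) (t : ℝ) :
    dist (z + t * x) (z + b) ^ 2 = 1 - 2 * t * dt360 x b + t ^ 2 * (x.re ^ 2 + x.im ^ 2) := by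
  have hb' : b.re ^ 2 + b.im ^ 2 = 1 := by
    have h3 : ‖b‖ ^ 2 = 1 := by rw [hb]; norm_num
    rw [Complex.sq_norm, Complex.normSq_apply] at h3
    linarith
  rw [dist_eq_norm, Complex.sq_norm, Complex.normSq_apply]
  have hre : (z + t * x - (z + b)).re = t * x.re - b.re := by simp
  have him : (z + t * x - (z + b)).im = t * x.im - b.im := by simp
  rw [hre, him, dt360]
  linear_combination hb'

/-- **Side rule, outside.** -/
theorem side_out (h : Irr U T) {z b x : ℂ} {p c : Fin k} {δ : ℝ} (hδ : 0 < δ)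
    (h1 : ∀ t : ℝ, 0 < t → t < δ → T (z + t * x) = {p}) (hb : ‖b‖ = 1)
    (hs : 0 < dt360 x b) (hT : T (z + b) ⊆ {c, p}) :
    ∀ᶠ w in 𝓝 z, dist w (z + b) < 1 → c ∉ T w := by
  have hy : dist (z + b) z = 1 := by rw [dist_eq_norm, add_sub_cancel_left]; exact hb
  have hout := h.solid_out hδ h1 hy (by rw [add_sub_cancel_left]; exact hs)
  obtain ⟨ε, hε, hball⟩ := Metric.eventually_nhds_iff.1 (hout.and (h.nhd (z + b)))
  -- the open form
  have hU : ∀ᶠ w in 𝓝 z, w ∈ U c → 1 ≤ dist w (z + b) := by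
    filter_upwards [ball_mem_nhds z (show 0 < ε / 2 by linarith)] with w hw hwU
    by_contra hcon
    push Not at hcon
    have hw : dist w z < ε / 2 := hw
    have hcont : ContinuousOn (fun s : ℝ => dist (z + ((1 + s : ℝ) : ℂ) * b) w)
        (Icc 0 (ε / 2)) := by
      refine Continuous.continuousOn ?_
      fun_prop
    have e0 : dist (z + ((1 + (0 : ℝ) : ℝ) : ℂ) * b) w ≤ 1 := by
      rw [dist_comm]
      have : z + ((1 + (0 : ℝ) : ℝ) : ℂ) * b = z + b := by push_cast; ring
      rw [this]; exact hcon.le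
    have e1 : 1 ≤ dist (z + ((1 + (ε / 2) : ℝ) : ℂ) * b) w := by
      have h2 : dist (z + ((1 + (ε / 2) : ℝ) : ℂ) * b) z = 1 + ε / 2 := by
        rw [dist_eq_norm, add_sub_cancel_left, norm_mul, hb, Complex.norm_real,
          Real.norm_of_nonneg (by linarith), mul_one]
      have h3 := dist_triangle (z + ((1 + (ε / 2) : ℝ) : ℂ) * b) w z
      linarith
    obtain ⟨s, hs1, hs2⟩ := intermediate_value_Icc (by linarith : (0 : ℝ) ≤ ε / 2) hcont
      (show (1 : ℝ) ∈ Icc _ _ from ⟨e0, e1⟩)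
    have hs2 : dist (z + ((1 + s : ℝ) : ℂ) * b) w = 1 := hs2
    have hs0 : 0 < s := by
      rcases hs1.1.lt_or_eq with h3 | h3
      · exact h3
      · exfalso
        rw [← h3] at hs2
        have : z + ((1 + (0 : ℝ) : ℝ) : ℂ) * b = z + b := by push_cast; ring
        rw [this, dist_comm] at hs2
        linarith
    have hv : dist (z + ((1 + s : ℝ) : ℂ) * b) (z + b) < ε := by
      have e : z + ((1 + s : ℝ) : ℂ) * b - (z + b) = (s : ℂ) * b := by push_cast; ring
      rw [dist_eq_norm, e, norm_mul, hb, Complex.norm_real, Real.norm_of_nonneg hs0.le, mul_one]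
      linarith [hs1.2]
    have hvz : 1 < dist (z + ((1 + s : ℝ) : ℂ) * b) z := by
      rw [dist_eq_norm, add_sub_cancel_left, norm_mul, hb, Complex.norm_real,
        Real.norm_of_nonneg (by linarith), mul_one]
      linarith
    obtain ⟨h4, h5⟩ := hball hv
    have hp := h4 hvz
    obtain ⟨i, hi⟩ := h.ne (z + ((1 + s : ℝ) : ℂ) * b)
    rcases hT (h5 hi) with h6 | h6
    · exact h.mx.notMem' hwU (by rw [dist_comm]; exact hs2) (h.sub _ (h6 ▸ hi))
    · have h6' : i = p := h6
      exact hp (h.sub _ (h6' ▸ hi))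
  obtain ⟨η, hη, hU'⟩ := Metric.eventually_nhds_iff.1 hU
  filter_upwards [ball_mem_nhds z hη] with w hw hwy hcw
  have hw : dist w z < η := hw
  obtain ⟨v, hTv, hv1, hv2⟩ := ((h.pure w c hcw).and_eventually
    (((continuous_id.dist continuous_const).continuousAt.eventually_lt
      (continuousAt_const (y := η)) hw).and
     ((continuous_id.dist continuous_const).continuousAt.eventually_lt
      (continuousAt_const (y := (1 : ℝ))) hwy))).exists
  have hvU : v ∈ U c := h.mem_of_single (by rw [hTv])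
  have := hU' hv1 hvU
  exact absurd hv2 (not_lt.2 this)

/-- **Side rule, inside.** -/
theorem side_in (h : Irr U T) {z b x : ℂ} {p c : Fin k} {δ : ℝ} (hδ : 0 < δ)
    (h1 : ∀ t : ℝ, 0 < t → t < δ → T (z + t * x) = {p}) (hb : ‖b‖ = 1)
    (hs : dt360 x b < 0) (hT : T (z + b) ⊆ {c, p}) :
    ∀ᶠ w in 𝓝 z, 1 < dist w (z + b) → c ∉ T w := by
  have hy : dist (z + b) z = 1 := by rw [dist_eq_norm, add_sub_cancel_left]; exact hb
  have hout := h.solid_in hδ h1 hy (by rw [add_sub_cancel_left]; exact hs)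
  obtain ⟨ε', hε', hball'⟩ := Metric.eventually_nhds_iff.1 (hout.and (h.nhd (z + b)))
  obtain ⟨ε, hε, hε1, hball⟩ : ∃ ε > 0, ε ≤ 1 ∧ ∀ ⦃v : ℂ⦄, dist v (z + b) < ε →
      (dist v z < 1 → p ∉ Pal U v) ∧ T v ⊆ T (z + b) :=
    ⟨min ε' 1, lt_min hε' one_pos, min_le_right _ _, fun v hv =>
      hball' (lt_of_lt_of_le hv (min_le_left _ _))⟩
  have hU : ∀ᶠ w in 𝓝 z, w ∈ U c → dist w (z + b) ≤ 1 := by
    filter_upwards [ball_mem_nhds z (show 0 < ε / 2 by linarith)] with w hw hwU
    by_contra hcon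
    push Not at hcon
    have hw : dist w z < ε / 2 := hw
    have hcont : ContinuousOn (fun s : ℝ => dist (z + ((1 - s : ℝ) : ℂ) * b) w)
        (Icc 0 (ε / 2)) := by
      refine Continuous.continuousOn ?_
      fun_prop
    have e0 : 1 ≤ dist (z + ((1 - (0 : ℝ) : ℝ) : ℂ) * b) w := by
      rw [dist_comm]
      have : z + ((1 - (0 : ℝ) : ℝ) : ℂ) * b = z + b := by push_cast; ring
      rw [this]; exact hcon.le
    have e1 : dist (z + ((1 - (ε / 2) : ℝ) : ℂ) * b) w ≤ 1 := by
      have h2 : dist (z + ((1 - (ε / 2) : ℝ) : ℂ) * b) z = 1 - ε / 2 := by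
        rw [dist_eq_norm, add_sub_cancel_left, norm_mul, hb, Complex.norm_real,
          Real.norm_of_nonneg (by linarith), mul_one]
      have h3 := dist_triangle_right (z + ((1 - (ε / 2) : ℝ) : ℂ) * b) w z
      linarith
    obtain ⟨s, hs1, hs2⟩ := intermediate_value_Icc' (by linarith : (0 : ℝ) ≤ ε / 2) hcont
      (show (1 : ℝ) ∈ Icc _ _ from ⟨e1, e0⟩)
    have hs2 : dist (z + ((1 - s : ℝ) : ℂ) * b) w = 1 := hs2
    have hs0 : 0 < s := by
      rcases hs1.1.lt_or_eq with h3 | h3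
      · exact h3
      · exfalso
        rw [← h3] at hs2
        have : z + ((1 - (0 : ℝ) : ℝ) : ℂ) * b = z + b := by push_cast; ring
        rw [this, dist_comm] at hs2
        linarith
    have hv : dist (z + ((1 - s : ℝ) : ℂ) * b) (z + b) < ε := by
      have e : z + ((1 - s : ℝ) : ℂ) * b - (z + b) = -((s : ℂ) * b) := by push_cast; ring
      rw [dist_eq_norm, e, norm_neg, norm_mul, hb, Complex.norm_real, Real.norm_of_nonneg hs0.le,
        mul_one]
      linarith [hs1.2]
    have hvz : dist (z + ((1 - s : ℝ) : ℂ) * b) z < 1 := by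
      rw [dist_eq_norm, add_sub_cancel_left, norm_mul, hb, Complex.norm_real,
        Real.norm_of_nonneg (by linarith [hs1.2]), mul_one]
      linarith
    obtain ⟨h4, h5⟩ := hball hv
    have hp := h4 hvz
    obtain ⟨i, hi⟩ := h.ne (z + ((1 - s : ℝ) : ℂ) * b)
    rcases hT (h5 hi) with h6 | h6
    · exact h.mx.notMem' hwU (by rw [dist_comm]; exact hs2) (h.sub _ (h6 ▸ hi))
    · have h6' : i = p := h6
      exact hp (h.sub _ (h6' ▸ hi))
  obtain ⟨η, hη, hU'⟩ := Metric.eventually_nhds_iff.1 hU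
  filter_upwards [ball_mem_nhds z hη] with w hw hwy hcw
  have hw : dist w z < η := hw
  obtain ⟨v, hTv, hv1, hv2⟩ := ((h.pure w c hcw).and_eventually
    (((continuous_id.dist continuous_const).continuousAt.eventually_lt
      (continuousAt_const (y := η)) hw).and
     ((continuousAt_const (y := (1 : ℝ))).eventually_lt
      (continuous_id.dist continuous_const).continuousAt hwy))).exists
  have hvU : v ∈ U c := h.mem_of_single (by rw [hTv])
  have := hU' hv1 hvU
  exact absurd hv2 (not_lt.2 this)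

end Irr

end Vale.Agent.P032.Six
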