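import Vale.Agent.P032.S5.H790.NZ
import Vale.Agent.P032.S5.H790.Nappe

/-!
# P032: Lemma C, the wild form of no-layering at a pentagonal point
-/

open Set Filter Topology Metric

noncomputable section

namespace Vale.Agent.P032.Six

variable {U : Fin 6 → Set ℂ} {T : ℂ → Set (Fin 6)}

namespace Irr

theorem distV {z b : ℂ} (hb : ‖b‖ = 1) (w : ℂ) (s : ℝ) :
    dist (z + ((1 + s : ℝ) : ℂ) * b) w ^ 2 =
      (1 + s) ^ 2 - 2 * (1 + s) * dt360 b (w - z) + dist w z ^ 2 := by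
  have hb' : b.re ^ 2 + b.im ^ 2 = 1 := by
    have h3 : ‖b‖ ^ 2 = 1 := by rw [hb]; norm_num
    rw [Complex.sq_norm, Complex.normSq_apply] at h3
    linarith
  rw [dist_eq_norm, dist_eq_norm, Complex.sq_norm, Complex.normSq_apply, Complex.sq_norm,
    Complex.normSq_apply]
  have hre : (z + ((1 + s : ℝ) : ℂ) * b - w).re = (1 + s) * b.re - (w - z).re := by simp; ring
  have him : (z + ((1 + s : ℝ) : ℂ) * b - w).im = (1 + s) * b.im - (w - z).im := by simp; ring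
  rw [hre, him, dt360]
  linear_combination (1 + s) ^ 2 * hb'

theorem dt_le {b v : ℂ} (hb : ‖b‖ = 1) : |dt360 b v| ≤ ‖v‖ := by
  have hb' : b.re ^ 2 + b.im ^ 2 = 1 := by
    have h3 : ‖b‖ ^ 2 = 1 := by rw [hb]; norm_num
    rw [Complex.sq_norm, Complex.normSq_apply] at h3
    linarith
  have h2 : ‖v‖ ^ 2 = v.re ^ 2 + v.im ^ 2 := by
    rw [Complex.sq_norm, Complex.normSq_apply]; ring
  refine abs_le_of_sq_le_sq ?_ (norm_nonneg _)
  rw [h2, dt360]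
  nlinarith [sq_nonneg (b.re * v.im - b.im * v.re)]

theorem mono_V {z b w : ℂ} (hb : ‖b‖ = 1) (hw : dist w z < 1 / 4) {s s' : ℝ} (hs : -(1 / 4) ≤ s)
    (hss : s < s') : dist (z + ((1 + s : ℝ) : ℂ) * b) w < dist (z + ((1 + s' : ℝ) : ℂ) * b) w := by
  have h1 := distV (z := z) hb w s
  have h2 := distV (z := z) hb w s'
  have h3 := dt_le (v := w - z) hb
  rw [← dist_eq_norm] at h3
  have h4 := (abs_le.1 h3).2
  have h5 : dist (z + ((1 + s : ℝ) : ℂ) * b) w ^ 2 < dist (z + ((1 + s' : ℝ) : ℂ) * b) w ^ 2 := by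
    rw [h1, h2]
    nlinarith
  exact lt_of_pow_lt_pow_left₀ 2 dist_nonneg h5

/-- the points of the unit circle about `z + (1 + s) b` near `z` -/
def arcC (z b : ℂ) (s τ : ℝ) : ℂ :=
  z + b * (((1 + s - Real.sqrt (1 - τ ^ 2) : ℝ) : ℂ) + τ * Complex.I)

theorem continuous_arcC (z b : ℂ) (s : ℝ) : Continuous (arcC z b s) := by
  unfold arcC
  fun_prop

theorem sqrt_bd {τ τ1 : ℝ} (h1 : τ1 ≤ 1 / 4) (h : |τ| ≤ τ1) :
    1 - τ1 ^ 2 ≤ Real.sqrt (1 - τ ^ 2) ∧ Real.sqrt (1 - τ ^ 2) ≤ 1 := by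
  have h0 : 0 ≤ τ1 := (abs_nonneg τ).trans h
  have h2 : τ ^ 2 ≤ τ1 ^ 2 := by rw [← sq_abs τ]; nlinarith [abs_nonneg τ]
  have h3 : τ1 ^ 2 ≤ 1 := by nlinarith
  refine ⟨?_, Real.sqrt_le_one.2 (by nlinarith [sq_nonneg τ])⟩
  refine Real.le_sqrt_of_sq_le ?_
  nlinarith [mul_nonneg (sq_nonneg τ1) (sub_nonneg.2 h3)]

theorem arcC_dist {z b : ℂ} (hb : ‖b‖ = 1) (s : ℝ) {τ : ℝ} (h : |τ| ≤ 1) :
    dist (arcC z b s τ) (z + ((1 + s : ℝ) : ℂ) * b) = 1 := by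
  have e : arcC z b s τ - (z + ((1 + s : ℝ) : ℂ) * b) =
      b * (((-Real.sqrt (1 - τ ^ 2) : ℝ) : ℂ) + τ * Complex.I) := by
    unfold arcC; push_cast; ring
  have h2 : τ ^ 2 ≤ 1 := by rw [← sq_abs τ]; nlinarith [abs_nonneg τ]
  rw [dist_eq_norm, e, norm_mul, hb, one_mul, Complex.norm_add_mul_I, neg_sq,
    Real.sq_sqrt (by linarith)]
  simp

theorem arcC_near {z b : ℂ} (hb : ‖b‖ = 1) {s s1 τ τ1 : ℝ} (hs : |s| ≤ s1) (h1 : τ1 ≤ 1 / 4)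
    (h : |τ| ≤ τ1) : dist (arcC z b s τ) z ≤ s1 + τ1 ^ 2 + τ1 := by
  have e : arcC z b s τ - z = b * (((1 + s - Real.sqrt (1 - τ ^ 2) : ℝ) : ℂ) + τ * Complex.I) := by
    unfold arcC; ring
  have h2 : dist (arcC z b s τ) z ≤ |1 + s - Real.sqrt (1 - τ ^ 2)| + |τ| := by
    rw [dist_eq_norm, e, norm_mul, hb, one_mul]
    refine (norm_add_le _ _).trans ?_
    rw [norm_mul, Complex.norm_I, mul_one, Complex.norm_real, Complex.norm_real,
      Real.norm_eq_abs, Real.norm_eq_abs]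
  have h3 : |1 + s - Real.sqrt (1 - τ ^ 2)| ≤ s1 + τ1 ^ 2 := by
    obtain ⟨h3, h4⟩ := sqrt_bd h1 h
    obtain ⟨h5, h6⟩ := abs_le.1 hs
    rw [abs_le]
    constructor <;> nlinarith [sq_nonneg τ1]
  linarith

theorem arcC_pos {z b p : ℂ} (hb : ‖b‖ = 1) {s : ℝ} (hs : |s| ≤ 1 / 4) (hpz : dist p z < 1 / 4)
    (hpx : dist p (z + ((1 + s : ℝ) : ℂ) * b) = 1) : ∃ τ, |τ| ≤ dist p z ∧ arcC z b s τ = p := by
  set ζ : ℂ := (starRingEnd ℂ) b * (p - z) with hζ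
  have hbb : b * (starRingEnd ℂ) b = 1 := by
    rw [Complex.mul_conj, Complex.normSq_eq_norm_sq, hb]; norm_num
  have hpζ : p = z + b * ζ := by
    rw [hζ, ← mul_assoc, hbb]; ring
  have hζn : ‖ζ‖ = dist p z := by
    rw [hζ, norm_mul, Complex.norm_conj, hb, one_mul, dist_eq_norm]
  have hζre : |ζ.re| ≤ dist p z := hζn ▸ Complex.abs_re_le_norm ζ
  have hζim : |ζ.im| ≤ dist p z := hζn ▸ Complex.abs_im_le_norm ζ
  refine ⟨ζ.im, hζim, ?_⟩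
  have h1 : (ζ.re - (1 + s)) ^ 2 + ζ.im ^ 2 = 1 := by
    have e2 : p - (z + ((1 + s : ℝ) : ℂ) * b) = b * (ζ - ((1 + s : ℝ) : ℂ)) := by
      rw [hpζ]; ring
    have h2 : ‖p - (z + ((1 + s : ℝ) : ℂ) * b)‖ ^ 2 = 1 := by
      rw [← dist_eq_norm, hpx]; norm_num
    rw [e2, norm_mul, hb, one_mul, Complex.sq_norm, Complex.normSq_apply] at h2
    have e3 : (ζ - ((1 + s : ℝ) : ℂ)).re = ζ.re - (1 + s) := by simp
    have e4 : (ζ - ((1 + s : ℝ) : ℂ)).im = ζ.im := by simp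
    rw [e3, e4] at h2
    nlinarith [h2]
  have h2 : ζ.re - (1 + s) < 0 := by
    have := (abs_le.1 hζre).2
    have := (abs_le.1 hs).1
    linarith
  have h3 : Real.sqrt (1 - ζ.im ^ 2) = (1 + s) - ζ.re := by
    have e : 1 - ζ.im ^ 2 = ((1 + s) - ζ.re) ^ 2 := by linarith [h1, sq_nonneg ζ.re,
      (by ring : ((1 + s) - ζ.re) ^ 2 = (ζ.re - (1 + s)) ^ 2)]
    rw [e, Real.sqrt_sq (by linarith)]
  unfold arcC
  rw [h3]
  have e5 : (((1 + s - ((1 + s) - ζ.re) : ℝ) : ℂ) + (ζ.im : ℂ) * Complex.I) = ζ := by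
    apply Complex.ext <;> simp
  rw [e5, ← hpζ]

theorem arcC_nap (z b : ℂ) {s s1 τ1 s' : ℝ} (hs : |s| ≤ s1) (h1 : τ1 ≤ 1 / 4) (h0 : 0 < τ1)
    (hs' : s' = 1 ∨ s' = -1) : ∃ r : ℝ, |r| * τ1 ≤ s1 + τ1 ^ 2 ∧
      arcC z b s (s' * τ1) = nap z b s' τ1 r := by
  have hsabs : |s' * τ1| = τ1 := by
    rcases hs' with rfl | rfl
    · rw [one_mul, abs_of_pos h0]
    · rw [neg_one_mul, abs_neg, abs_of_pos h0]
  have hsτ : s' * τ1 ≠ 0 := by
    intro hc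
    rw [hc, abs_zero] at hsabs
    linarith
  refine ⟨(1 + s - Real.sqrt (1 - (s' * τ1) ^ 2)) / (s' * τ1), ?_, ?_⟩
  · rw [abs_div, hsabs, div_mul_cancel₀ _ h0.ne']
    obtain ⟨h3, h4⟩ := sqrt_bd h1 hsabs.le
    obtain ⟨h5, h6⟩ := abs_le.1 hs
    rw [abs_le]
    constructor <;> nlinarith [sq_nonneg τ1]
  · set r : ℝ := (1 + s - Real.sqrt (1 - (s' * τ1) ^ 2)) / (s' * τ1) with hr
    have h2 : r * (s' * τ1) = 1 + s - Real.sqrt (1 - (s' * τ1) ^ 2) := by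
      rw [hr, div_mul_cancel₀ _ hsτ]
    unfold arcC nap
    rw [← h2]
    push_cast
    ring

theorem arcC_inj {z b : ℂ} (hb : ‖b‖ = 1) {s τ τ' : ℝ} (h : arcC z b s τ = arcC z b s τ') :
    τ = τ' := by
  have hb0 : b ≠ 0 := by
    intro h0
    rw [h0, norm_zero] at hb
    exact zero_ne_one hb
  unfold arcC at h
  have h3 := congrArg Complex.im (mul_left_cancel₀ hb0 (add_left_cancel h))
  simpa using h3

/-- for `w` near `z` the ray meets the unit circle about `w` -/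
theorem exists_V {z b w : ℂ} (hb : ‖b‖ = 1) {s1 : ℝ} (hs1 : 0 < s1) (hs1' : s1 < 1)
    (hw : dist w z < s1) : ∃ s ∈ Icc (-s1) s1, dist w (z + ((1 + s : ℝ) : ℂ) * b) = 1 := by
  have hcont : ContinuousOn (fun s : ℝ => dist w (z + ((1 + s : ℝ) : ℂ) * b)) (Icc (-s1) s1) := by
    refine Continuous.continuousOn ?_
    fun_prop
  have hz : ∀ s : ℝ, -1 ≤ s → dist z (z + ((1 + s : ℝ) : ℂ) * b) = 1 + s := by
    intro s hs
    rw [dist_comm, dist_eq_norm, add_sub_cancel_left, norm_mul, hb, Complex.norm_real,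
      Real.norm_of_nonneg (by linarith), mul_one]
  have e0 : dist w (z + ((1 + (-s1) : ℝ) : ℂ) * b) ≤ 1 := by
    have := dist_triangle w z (z + ((1 + (-s1) : ℝ) : ℂ) * b)
    rw [hz (-s1) (by linarith)] at this
    linarith
  have e1 : 1 ≤ dist w (z + ((1 + s1 : ℝ) : ℂ) * b) := by
    have := dist_triangle z w (z + ((1 + s1 : ℝ) : ℂ) * b)
    rw [hz s1 (by linarith), dist_comm z w] at this
    linarith
  obtain ⟨s, hs, hs2⟩ := intermediate_value_Icc (by linarith : -s1 ≤ s1) hcont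
    (show (1 : ℝ) ∈ Icc _ _ from ⟨e0, e1⟩)
  exact ⟨s, hs, hs2⟩

/-- first part: the point `x*` -/
theorem exists_xstar (h : Irr U T) {z b : ℂ} {c1 c4 : Fin 6} (hb : ‖b‖ = 1) {s1 : ℝ}
    (hs0 : 0 < s1) (hs14 : s1 ≤ 1 / 4)
    (hnear : ∀ s ∈ Icc (-s1) s1, T (z + ((1 + s : ℝ) : ℂ) * b) ⊆ {c1, c4}) {C : Set ℂ}
    (hC : IsPreconnected C) (hCz : ∀ x ∈ C, dist x z < s1) {w u : ℂ} (hw : w ∈ C)
    (hTw : T w = {c1}) (hu : u ∈ C) (hTu : T u = {c4}) :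
    ∃ s ∈ Icc (-s1) s1, c1 ∈ T (z + ((1 + s : ℝ) : ℂ) * b) ∧
      c4 ∈ T (z + ((1 + s : ℝ) : ℂ) * b) ∧ ∃ p ∈ C, dist p (z + ((1 + s : ℝ) : ℂ) * b) = 1 := by
  obtain ⟨sw, hsw, hsw1⟩ := exists_V (z := z) hb hs0 (by linarith) (hCz w hw)
  obtain ⟨su, hsu, hsu1⟩ := exists_V (z := z) hb hs0 (by linarith) (hCz u hu)
  have hwU : w ∈ U c1 := h.mem_of_single (by rw [hTw])
  have huU : u ∈ U c4 := h.mem_of_single (by rw [hTu])
  have hw1 : c1 ∉ T (z + ((1 + sw : ℝ) : ℂ) * b) := fun hc =>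
    h.mx.notMem' hwU hsw1 (h.sub _ hc)
  have hu4 : c4 ∉ T (z + ((1 + su : ℝ) : ℂ) * b) := fun hc =>
    h.mx.notMem' huU hsu1 (h.sub _ hc)
  have hw4 : c4 ∈ T (z + ((1 + sw : ℝ) : ℂ) * b) := by
    obtain ⟨i, hi⟩ := h.ne (z + ((1 + sw : ℝ) : ℂ) * b)
    rcases hnear sw hsw hi with h1 | h1
    · exact absurd (h1 ▸ hi) hw1
    · have h1' : i = c4 := h1
      exact h1' ▸ hi
  have hu1 : c1 ∈ T (z + ((1 + su : ℝ) : ℂ) * b) := by
    obtain ⟨i, hi⟩ := h.ne (z + ((1 + su : ℝ) : ℂ) * b)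
    rcases hnear su hsu hi with h1 | h1
    · exact h1 ▸ hi
    · have h1' : i = c4 := h1
      exact absurd (h1' ▸ hi) hu4
  have hVc : Continuous fun s : ℝ => z + ((1 + s : ℝ) : ℂ) * b := by fun_prop
  have huI : uIcc sw su ⊆ Icc (-s1) s1 := uIcc_subset_Icc hsw hsu
  obtain ⟨sx, hsx, hx1, hx4⟩ := isPreconnected_closed_iff.1 (isPreconnected_uIcc (a := sw) (b := su))
    {s | c1 ∈ T (z + ((1 + s : ℝ) : ℂ) * b)} {s | c4 ∈ T (z + ((1 + s : ℝ) : ℂ) * b)}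
    ((h.closed c1).preimage hVc) ((h.closed c4).preimage hVc)
    (fun s hs => by
      obtain ⟨i, hi⟩ := h.ne (z + ((1 + s : ℝ) : ℂ) * b)
      rcases hnear s (huI hs) hi with h1 | h1
      · left; exact h1 ▸ hi
      · right
        have h1' : i = c4 := h1
        exact h1' ▸ hi)
    ⟨su, right_mem_uIcc, hu1⟩ ⟨sw, left_mem_uIcc, hw4⟩
  have hx1 : c1 ∈ T (z + ((1 + sx : ℝ) : ℂ) * b) := hx1
  have hx4 : c4 ∈ T (z + ((1 + sx : ℝ) : ℂ) * b) := hx4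
  have hsx' := huI hsx
  have hnew : sx ≠ sw := fun hc => hw1 (hc ▸ hx1)
  have hneu : sx ≠ su := fun hc => hu4 (hc ▸ hx4)
  have hsw4 : -(1 / 4) ≤ sw := by linarith [hsw.1]
  have hsu4 : -(1 / 4) ≤ su := by linarith [hsu.1]
  have hsx4 : -(1 / 4) ≤ sx := by linarith [hsx'.1]
  have hwz : dist w z < 1 / 4 := lt_of_lt_of_le (hCz w hw) (by linarith)
  have huz : dist u z < 1 / 4 := lt_of_lt_of_le (hCz u hu) (by linarith)
  rw [dist_comm] at hsw1 hsu1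
  refine ⟨sx, hsx', hx1, hx4, ?_⟩
  have hcd : ContinuousOn (fun p => dist p (z + ((1 + sx : ℝ) : ℂ) * b)) C := by
    refine Continuous.continuousOn ?_
    fun_prop
  rcases mem_uIcc.1 hsx with ⟨h1, h2⟩ | ⟨h1, h2⟩
  · have h3 := mono_V hb hwz hsw4 (lt_of_le_of_ne h1 hnew.symm)
    have h4 := mono_V hb huz hsx4 (lt_of_le_of_ne h2 hneu)
    rw [hsw1] at h3
    rw [hsu1] at h4
    exact hC.intermediate_value hu hw hcd ⟨by rw [dist_comm]; exact h4.le,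
      by rw [dist_comm]; exact h3.le⟩
  · have h3 := mono_V hb huz hsu4 (lt_of_le_of_ne h1 hneu.symm)
    have h4 := mono_V hb hwz hsx4 (lt_of_le_of_ne h2 hnew)
    rw [hsu1] at h3
    rw [hsw1] at h4
    exact hC.intermediate_value hw hu hcd ⟨by rw [dist_comm]; exact h4.le,
      by rw [dist_comm]; exact h3.le⟩

/-- no pure point on the circle about `x*` near `z` -/
theorem Pen.circ (h : Irr U T) {z x : ℂ} {q : Fin 5 → Fin 6} (P : Pen T z q) {ρ1 : ℝ}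
    (hz1 : ∀ ⦃y : ℂ⦄, dist y z < ρ1 →
      (∀ i, q i ∈ T y → q (i + 2) ∈ T y → T y = T z) ∧ T y ⊆ T z)
    (hx1 : q 1 ∈ T x) (hx4 : q 4 ∈ T x) (v : ℂ) (hv : dist v z < ρ1) (hvx : dist v x = 1) :
    q 0 ∈ T v ∨ q 2 ∈ T v ∨ q 3 ∈ T v := by
  by_contra hcon
  push Not at hcon
  obtain ⟨n0, n2, n3⟩ := hcon
  have hsub : T v ⊆ {q 1, q 4} := by
    intro i hi
    have h1 := (hz1 hv).2 hi
    rw [P.rng] at h1
    obtain ⟨j, rfl⟩ := h1
    fin_cases j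
    · exact absurd hi n0
    · left; rfl
    · exact absurd hi n2
    · exact absurd hi n3
    · right; rfl
  by_cases h1 : q 1 ∈ T v
  · by_cases h4 : q 4 ∈ T v
    · have h5 := (hz1 hv).1 4 h4 h1
      exact n0 (by rw [h5]; exact P.mem 0)
    · have h5 : T v ⊆ {q 1} := by
        intro i hi
        rcases hsub hi with h6 | h6
        · exact h6
        · have h6' : i = q 4 := h6
          exact absurd (h6' ▸ hi) h4
      exact h.mx.notMem' (h.mem_of_single h5) hvx (h.sub _ hx1)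
  · have h5 : T v ⊆ {q 4} := by
      intro i hi
      rcases hsub hi with h6 | h6
      · exact absurd (h6 ▸ hi) h1
      · exact h6
    exact h.mx.notMem' (h.mem_of_single h5) hvx (h.sub _ hx4)

/-- second part: the arc of the circle about `x*` -/
theorem Pen.arc_false (h : Irr U T) {z b : ℂ} {q : Fin 5 → Fin 6} (P : Pen T z q)
    (hb : ‖b‖ = 1) {ρ1 τ1 s1 δ s : ℝ}
    (hz1 : ∀ ⦃y : ℂ⦄, dist y z < ρ1 →
      (∀ i, q i ∈ T y → q (i + 2) ∈ T y → T y = T z) ∧ T y ⊆ T z)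
    (hnap : ∀ s : ℝ, (s = 1 ∨ s = -1) → ∀ t r : ℝ, 0 < t → t < δ → |r| < δ →
      T (nap z b s t r) ⊆ {q 2, q 3})
    (hτ0 : 0 < τ1) (hτδ : τ1 ≤ δ / 4) (hτ4 : τ1 ≤ 1 / 4) (hτρ : τ1 ≤ ρ1 / 4)
    (hsδ : s1 ≤ τ1 * δ / 4) (hsτ : s1 ≤ τ1) (hs : |s| ≤ s1)
    (hx : T (z + ((1 + s : ℝ) : ℂ) * b) ⊆ {q 1, q 4})
    (hx1 : q 1 ∈ T (z + ((1 + s : ℝ) : ℂ) * b)) (hx4 : q 4 ∈ T (z + ((1 + s : ℝ) : ℂ) * b))
    {p : ℂ} (hpz : dist p z < s1) (hpx : dist p (z + ((1 + s : ℝ) : ℂ) * b) = 1)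
    (hp : T p ⊆ {q 0, q 1, q 4}) : False := by
  have i01 : q 0 ≠ q 1 := P.inj.ne (by decide)
  have i02 : q 2 ≠ q 0 := P.inj.ne (by decide)
  have i12 : q 2 ≠ q 1 := P.inj.ne (by decide)
  have i24 : q 2 ≠ q 4 := P.inj.ne (by decide)
  have i03 : q 3 ≠ q 0 := P.inj.ne (by decide)
  have i13 : q 3 ≠ q 1 := P.inj.ne (by decide)
  have i34 : q 3 ≠ q 4 := P.inj.ne (by decide)
  have h2p : q 2 ∉ T p := by
    intro h1
    rcases hp h1 with h2 | h2 | h2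
    · exact i02 h2
    · exact i12 h2
    · exact i24 h2
  have h3p : q 3 ∉ T p := by
    intro h1
    rcases hp h1 with h2 | h2 | h2
    · exact i03 h2
    · exact i13 h2
    · exact i34 h2
  have hcirc := P.circ h hz1 hx1 hx4
  have hp0 : q 0 ∈ T p := by
    rcases hcirc p (by linarith) hpx with h1 | h1 | h1
    · exact h1
    · exact absurd h1 h2p
    · exact absurd h1 h3p
  have hpT : T p ≠ T z := fun hc => h2p (by rw [hc]; exact P.mem 2)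
  have hcc := continuous_arcC z b s
  have hcx : ∀ τ ∈ Icc (-τ1) τ1, dist (arcC z b s τ) (z + ((1 + s : ℝ) : ℂ) * b) = 1 :=
    fun τ hτ => arcC_dist hb s ((abs_le.2 hτ).trans (by linarith))
  have hcz : ∀ τ ∈ Icc (-τ1) τ1, dist (arcC z b s τ) z < ρ1 ∧ dist (arcC z b s τ) z < 3 / 4 := by
    intro τ hτ
    have h1 := arcC_near (z := z) hb hs hτ4 (abs_le.2 hτ)
    have h2 : τ1 ^ 2 ≤ τ1 / 4 := by nlinarith
    constructor <;> linarith
  obtain ⟨τp, hτp', hcp⟩ := arcC_pos hb (by linarith) (by linarith) hpx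
  have hτp : τp ∈ Icc (-τ1) τ1 := abs_le.1 (by linarith)
  have hend : ∀ s' : ℝ, (s' = 1 ∨ s' = -1) → q 2 ∈ T (arcC z b s (s' * τ1)) ∨
      q 3 ∈ T (arcC z b s (s' * τ1)) := by
    intro s' hs'
    obtain ⟨r, hr, e⟩ := arcC_nap z b hs hτ4 hτ0 hs'
    have hrabs : |r| < δ := by
      by_contra hcon
      push Not at hcon
      nlinarith
    have h1 := hnap s' hs' τ1 r hτ0 (by linarith) hrabs
    rw [← e] at h1
    obtain ⟨i, hi⟩ := h.ne (arcC z b s (s' * τ1))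
    rcases h1 hi with h2 | h2
    · left; exact h2 ▸ hi
    · right
      have h2' : i = q 3 := h2
      exact h2' ▸ hi
  have hA0 : IsClosed {τ | q 0 ∈ T (arcC z b s τ)} := (h.closed (q 0)).preimage hcc
  have hA23 : IsClosed ({τ | q 2 ∈ T (arcC z b s τ)} ∪ {τ | q 3 ∈ T (arcC z b s τ)}) :=
    ((h.closed (q 2)).preimage hcc).union ((h.closed (q 3)).preimage hcc)
  have hcov : ∀ τ ∈ Icc (-τ1) τ1, τ ∈ {τ | q 0 ∈ T (arcC z b s τ)} ∪
      ({τ | q 2 ∈ T (arcC z b s τ)} ∪ {τ | q 3 ∈ T (arcC z b s τ)}) := by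
    intro τ hτ
    rcases hcirc (arcC z b s τ) (hcz τ hτ).1 (hcx τ hτ) with h1 | h1 | h1
    · exact Or.inl h1
    · exact Or.inr (Or.inl h1)
    · exact Or.inr (Or.inr h1)
  have hfull : ∀ τ ∈ Icc (-τ1) τ1, q 0 ∈ T (arcC z b s τ) →
      (q 2 ∈ T (arcC z b s τ) ∨ q 3 ∈ T (arcC z b s τ)) → T (arcC z b s τ) = T z := by
    intro τ hτ h0 h23
    rcases h23 with h2 | h3
    · exact (hz1 (hcz τ hτ).1).1 0 h0 h2
    · exact (hz1 (hcz τ hτ).1).1 3 h3 h0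
  have hp0' : q 0 ∈ T (arcC z b s τp) := by rw [hcp]; exact hp0
  obtain ⟨τa, hτa, ha⟩ : ∃ τ ∈ Icc τp τ1, T (arcC z b s τ) = T z := by
    have hsub : Icc τp τ1 ⊆ Icc (-τ1) τ1 := Icc_subset_Icc hτp.1 le_rfl
    obtain ⟨τ, hτ, h1, h2⟩ := isPreconnected_closed_iff.1 (isPreconnected_Icc (a := τp) (b := τ1))
      _ _ hA0 hA23 (fun τ hτ => hcov τ (hsub hτ)) ⟨τp, ⟨le_rfl, hτp.2⟩, hp0'⟩
      ⟨τ1, ⟨hτp.2, le_rfl⟩, by
        have := hend 1 (Or.inl rfl)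
        rw [one_mul] at this
        exact this⟩
    exact ⟨τ, hτ, hfull τ (hsub hτ) h1 h2⟩
  obtain ⟨τb, hτb, hb2⟩ : ∃ τ ∈ Icc (-τ1) τp, T (arcC z b s τ) = T z := by
    have hsub : Icc (-τ1) τp ⊆ Icc (-τ1) τ1 := Icc_subset_Icc le_rfl hτp.2
    obtain ⟨τ, hτ, h1, h2⟩ := isPreconnected_closed_iff.1
      (isPreconnected_Icc (a := -τ1) (b := τp))
      _ _ hA0 hA23 (fun τ hτ => hcov τ (hsub hτ)) ⟨τp, ⟨hτp.1, le_rfl⟩, hp0'⟩
      ⟨-τ1, ⟨le_rfl, hτp.1⟩, by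
        have := hend (-1) (Or.inr rfl)
        rw [neg_one_mul] at this
        exact this⟩
    exact ⟨τ, hτ, hfull τ (hsub hτ) h1 h2⟩
  have hτab : τa ≠ τb := by
    intro hc
    have h1 : τa = τp := le_antisymm (hc ▸ hτb.2) hτa.1
    rw [h1, hcp] at ha
    exact hpT ha
  have hτa' : τa ∈ Icc (-τ1) τ1 := ⟨hτp.1.trans hτa.1, hτa.2⟩
  have hτb' : τb ∈ Icc (-τ1) τ1 := ⟨hτb.1, hτb.2.trans hτp.2⟩
  rcases h.lemmaB hx (by rw [dist_comm]; exact hcx τa hτa')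
    (by rw [dist_comm]; exact hcx τb hτb') (h.sub _ (by rw [ha]; exact P.mem 1))
    (h.sub _ (by rw [hb2]; exact P.mem 4)) with h1 | h1
  · exact hτab (arcC_inj hb h1).symm
  · have h2 : (arcC z b s τb - z) + (arcC z b s τa - z) = 2 * (((1 + s : ℝ) : ℂ) * b) := by
      linear_combination h1
    have h3 := norm_add_le (arcC z b s τb - z) (arcC z b s τa - z)
    have hs' := abs_le.1 hs
    rw [h2, norm_mul, norm_mul, hb, Complex.norm_real, Real.norm_of_nonneg (by linarith),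
      ← dist_eq_norm, ← dist_eq_norm] at h3
    have h4 := (hcz τa hτa').2
    have h5 := (hcz τb hτb').2
    norm_num at h3
    linarith

/-- **Lemma C.** Near a pentagonal point `z` with an exact point `z + b` of the pair `{q 1, q 4}`
whose nappes are inside `{q 2, q 3}`, a connected set with palettes in `{q 0, q 1, q 4}` does not
contain both pure `q 1` and pure `q 4` points. -/
theorem Pen.lemC (h : Irr U T)
    (hmin : ∀ z, 4 ≤ (T z).ncard → ∀ s, s ⊆ T z → s ≠ T z →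
      ¬ ∀ᶠ w in 𝓝 z, ∃ i ∈ s, w ∈ U i ∨ (w ∈ XX U ∧ i ∈ Pal U w)) {z b : ℂ}
    {q : Fin 5 → Fin 6} (P : Pen T z q) (hb : ‖b‖ = 1) (hTb : T (z + b) ⊆ {q 1, q 4}) {δ : ℝ}
    (hδ : 0 < δ) (hnap : ∀ s : ℝ, (s = 1 ∨ s = -1) → ∀ t r : ℝ, 0 < t → t < δ → |r| < δ →
      T (nap z b s t r) ⊆ {q 2, q 3}) :
    ∃ ε > 0, ∀ C : Set ℂ, IsPreconnected C → (∀ x ∈ C, dist x z < ε) →
      (∀ x ∈ C, T x ⊆ {q 0, q 1, q 4}) → ∀ w ∈ C, T w = {q 1} → ∀ u ∈ C, T u = {q 4} → False := by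
  obtain ⟨ρ1, hρ1, hz1⟩ := Metric.eventually_nhds_iff.1 ((P.nz h hmin).and (h.nhd z))
  obtain ⟨ρ2, hρ2, hy1⟩ := Metric.eventually_nhds_iff.1 (h.nhd (z + b))
  set τ1 : ℝ := min (min (δ / 4) (1 / 4)) (ρ1 / 4) with hτ1
  have hτ0 : 0 < τ1 := by positivity
  have hτδ : τ1 ≤ δ / 4 := (min_le_left _ _).trans (min_le_left _ _)
  have hτ4 : τ1 ≤ 1 / 4 := (min_le_left _ _).trans (min_le_right _ _)
  have hτρ : τ1 ≤ ρ1 / 4 := min_le_right _ _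
  set s1 : ℝ := min (min (ρ2 / 2) (τ1 * δ / 4)) τ1 with hs1
  have hs0 : 0 < s1 := by positivity
  have hsρ : s1 ≤ ρ2 / 2 := (min_le_left _ _).trans (min_le_left _ _)
  have hsδ : s1 ≤ τ1 * δ / 4 := (min_le_left _ _).trans (min_le_right _ _)
  have hsτ : s1 ≤ τ1 := min_le_right _ _
  refine ⟨s1, hs0, fun C hC hCz hCT w hw hTw u hu hTu => ?_⟩
  have hnear : ∀ s ∈ Icc (-s1) s1, T (z + ((1 + s : ℝ) : ℂ) * b) ⊆ {q 1, q 4} := by
    intro s hs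
    refine (hy1 ?_).trans hTb
    have e : z + ((1 + s : ℝ) : ℂ) * b - (z + b) = (s : ℂ) * b := by push_cast; ring
    rw [dist_eq_norm, e, norm_mul, hb, Complex.norm_real, mul_one, Real.norm_eq_abs]
    have := abs_le.2 hs
    linarith
  obtain ⟨s, hs, h1, h4, p, hp, hpx⟩ := h.exists_xstar hb hs0 (by linarith) hnear hC hCz hw hTw
    hu hTu
  exact P.arc_false h hb hz1 hnap hτ0 hτδ hτ4 hτρ hsδ hsτ (abs_le.2 hs) (hnear s hs) h1 h4
    (hCz p hp) hpx (hCT p hp)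

end Irr

end Vale.Agent.P032.Six
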