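import Mathlib

/-!
# Local reduction for words on a circle (abstract part)

`O h` is the set of times with generic state `h` (finitely many states), dense union.  At a time
`u` the states accumulating at `u` are those with `u ∈ closure (O h)`.
-/

namespace Vale.Agent.P032.S5.H790

open Set Filter Topology

variable {ι β : Type*}

/-- Near `u` only states accumulating at `u` accumulate. -/
theorem acc_near [Finite ι] (O : ι → Set ℝ) (u : ℝ) :
    ∀ᶠ t in 𝓝 u, ∀ h, t ∈ closure (O h) → u ∈ closure (O h) := by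
  rw [eventually_all]
  intro h
  by_cases hu : u ∈ closure (O h)
  · exact Eventually.of_forall fun t _ => hu
  · have : (closure (O h))ᶜ ∈ 𝓝 u := isClosed_closure.isOpen_compl.mem_nhds hu
    filter_upwards [this] with t ht hth
    exact absurd hth ht

/-- Every time is an accumulation time of some state. -/
theorem acc_ex [Finite ι] (O : ι → Set ℝ) (hd : Dense (⋃ h, O h)) (u : ℝ) :
    ∃ h, u ∈ closure (O h) := by
  have h1 : closure (⋃ h, O h) = ⋃ h, closure (O h) := by
    exact closure_iUnion_of_finite O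
  have h2 : u ∈ closure (⋃ h, O h) := hd u
  rw [h1] at h2
  exact mem_iUnion.1 h2

/-- **Window lemma.**  If at every time of a preconnected set `S` the label is constant on the
accumulating states, then two states with accumulation times in `S` have the same label. -/
theorem window [Finite ι] (O : ι → Set ℝ) (hd : Dense (⋃ h, O h)) (f : ι → β) {S : Set ℝ}
    (hS : IsPreconnected S)
    (hc : ∀ u ∈ S, ∀ h h', u ∈ closure (O h) → u ∈ closure (O h') → f h = f h')
    {a b : ι} {s t : ℝ} (hs : s ∈ S) (ht : t ∈ S) (ha : s ∈ closure (O a))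
    (hb : t ∈ closure (O b)) : f a = f b := by
  by_contra hne
  have hcl := isPreconnected_closed_iff.1 hS
    (⋃ h ∈ {h : ι | f h = f a}, closure (O h)) (⋃ h ∈ {h : ι | f h ≠ f a}, closure (O h))
    ((Set.toFinite _).isClosed_biUnion fun h _ => isClosed_closure)
    ((Set.toFinite _).isClosed_biUnion fun h _ => isClosed_closure)
    (by
      intro u _
      obtain ⟨h, hh⟩ := acc_ex O hd u
      by_cases hf : f h = f a
      · exact Or.inl (mem_biUnion hf hh)
      · exact Or.inr (mem_biUnion (show f h ≠ f a from hf) hh))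
    ⟨s, hs, mem_biUnion (show f a = f a from rfl) ha⟩
    ⟨t, ht, mem_biUnion (show f b ≠ f a from fun h => hne h.symm) hb⟩
  obtain ⟨u, huS, hu1, hu2⟩ := hcl
  simp only [mem_iUnion, Set.mem_ofPred_eq] at hu1 hu2
  obtain ⟨h1, e1, m1⟩ := hu1
  obtain ⟨h2, e2, m2⟩ := hu2
  exact e2 ((hc u huS h2 h1 m2 m1).trans e1)

/-! ### Palettes -/

/-- The set of times with state `h`. -/
def Ost {n : ℕ} {κ : Type*} (P : ℝ → Set κ) (h : Fin n → Set κ) : Set ℝ :=
  {t | ∀ᶠ s in 𝓝 t, ∀ k : Fin n, P (s + (k : ℕ)) = h k}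

theorem Ost_open {n : ℕ} {κ : Type*} (P : ℝ → Set κ) (h : Fin n → Set κ) :
    IsOpen (Ost P h) := by
  rw [isOpen_iff_mem_nhds]
  intro t ht
  exact ht.eventually_nhds

/-- The generic times are dense. -/
theorem Ost_dense {n : ℕ} {κ : Type*} [Finite κ] (P : ℝ → Set κ)
    (hcl : ∀ c, IsClosed {t | c ∈ P t}) : Dense (⋃ h : Fin n → Set κ, Ost P h) := by
  classical
  have := Fintype.ofFinite κ
  have hsub : ∀ t : ℝ, ∀ᶠ s in 𝓝 t, ∀ k : Fin n, P (s + (k : ℕ)) ⊆ P (t + (k : ℕ)) := by
    intro t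
    rw [eventually_all]
    intro k
    have : ∀ᶠ s in 𝓝 (t + (k : ℕ)), ∀ c, c ∈ P s → c ∈ P (t + (k : ℕ)) := by
      rw [eventually_all]
      intro c
      by_cases hc : c ∈ P (t + (k : ℕ))
      · exact Eventually.of_forall fun _ _ => hc
      · filter_upwards [(hcl c).isOpen_compl.mem_nhds (show t + (k : ℕ) ∈ {t | c ∈ P t}ᶜ from hc)]
          with s hs hsc
        exact absurd hsc hs
    have hcont : Tendsto (fun s : ℝ => s + (k : ℕ)) (𝓝 t) (𝓝 (t + (k : ℕ))) :=
      (continuous_id.add continuous_const).tendsto t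
    exact (hcont.eventually this).mono fun s hs c hc => hs c hc
  rw [dense_iff_inter_open]
  intro V hV hne
  let N : ℝ → ℕ := fun t => ∑ k : Fin n, (P (t + (k : ℕ))).ncard
  obtain ⟨t0, ht0⟩ := hne
  have hex : ∃ m, ∃ t ∈ V, N t = m := ⟨N t0, t0, ht0, rfl⟩
  obtain ⟨t, htV, htN⟩ := Nat.find_spec hex
  have hmin : ∀ s ∈ V, N t ≤ N s := by
    intro s hs
    rw [htN]
    exact Nat.find_min' hex ⟨s, hs, rfl⟩
  refine ⟨t, htV, mem_iUnion.2 ⟨fun k => P (t + (k : ℕ)), ?_⟩⟩
  show ∀ᶠ s in 𝓝 t, ∀ k : Fin n, P (s + (k : ℕ)) = P (t + (k : ℕ))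
  filter_upwards [hsub t, hV.mem_nhds htV] with s hs hsV k
  have hle : ∀ j : Fin n, (P (s + (j : ℕ))).ncard ≤ (P (t + (j : ℕ))).ncard := fun j =>
    Set.ncard_le_ncard (hs j) (Set.toFinite _)
  have heq : ∑ j : Fin n, (P (s + (j : ℕ))).ncard = ∑ j : Fin n, (P (t + (j : ℕ))).ncard :=
    le_antisymm (Finset.sum_le_sum fun j _ => hle j) (hmin s hsV)
  have := (Finset.sum_eq_sum_iff_of_le fun j _ => hle j).1 heq k (Finset.mem_univ _)
  exact Set.eq_of_subset_of_ncard_le (hs k) this.ge (Set.toFinite _)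

/-- A point of the closure of the `h`-times has `h k ⊆ P (u + k)`. -/
theorem Ost_sub {n : ℕ} {κ : Type*} (P : ℝ → Set κ) (hcl : ∀ c, IsClosed {t | c ∈ P t})
    {h : Fin n → Set κ} {u : ℝ} (hu : u ∈ closure (Ost P h)) (k : Fin n) :
    h k ⊆ P (u + (k : ℕ)) := by
  intro c hc
  have h1 : closure (Ost P h) ⊆ {t | c ∈ P (t + (k : ℕ))} := by
    apply closure_minimal
    · intro t ht
      have := ht.self_of_nhds k
      show c ∈ P (t + (k : ℕ))
      rw [this]; exact hc
    · exact (hcl c).preimage (continuous_id.add continuous_const)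
  exact h1 hu

/-- Rotation of a state (six positions, period six). -/
theorem Ost_rot {κ : Type*} (P : ℝ → Set κ) (hper : ∀ t, P (t + 6) = P t)
    {h : Fin 6 → Set κ} {u : ℝ} (hu : u ∈ Ost P h) :
    u + 1 ∈ Ost P (fun k : Fin 6 => h (k + 1)) := by
  have hc : Tendsto (fun s : ℝ => s - 1) (𝓝 (u + 1)) (𝓝 u) := by
    have : Tendsto (fun s : ℝ => s - 1) (𝓝 (u + 1)) (𝓝 (u + 1 - 1)) :=
      (continuous_id.sub continuous_const).tendsto _
    simpa using this
  have h1 := hc.eventually hu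
  filter_upwards [h1] with s hs k
  have key : ∀ m : ℕ, ∀ k' : Fin 6, (k' : ℕ) = m → P (s - 1 + m) = h k' := by
    intro m k' hk
    have := hs k'
    rw [hk] at this
    exact this
  fin_cases k
  · have := key 1 1 rfl
    show P (s + ((0 : Fin 6) : ℕ)) = h 1
    rw [← this]; congr 1
    have : (((0 : Fin 6) : ℕ) : ℝ) = 0 := by norm_num
    rw [this]; push_cast; ring
  · have := key 2 2 rfl
    show P (s + ((1 : Fin 6) : ℕ)) = h 2
    rw [← this]; congr 1
    have : (((1 : Fin 6) : ℕ) : ℝ) = 1 := by norm_num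
    rw [this]; push_cast; ring
  · have := key 3 3 rfl
    show P (s + ((2 : Fin 6) : ℕ)) = h 3
    rw [← this]; congr 1
    have : (((2 : Fin 6) : ℕ) : ℝ) = 2 := by norm_num
    rw [this]; push_cast; ring
  · have := key 4 4 rfl
    show P (s + ((3 : Fin 6) : ℕ)) = h 4
    rw [← this]; congr 1
    have : (((3 : Fin 6) : ℕ) : ℝ) = 3 := by norm_num
    rw [this]; push_cast; ring
  · have := key 5 5 rfl
    show P (s + ((4 : Fin 6) : ℕ)) = h 5
    rw [← this]; congr 1
    have : (((4 : Fin 6) : ℕ) : ℝ) = 4 := by norm_num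
    rw [this]; push_cast; ring
  · have := key 0 0 rfl
    have h6 := hper (s - 1)
    have e : s + ((5 : Fin 6) : ℕ) = s - 1 + 6 := by
      have : (((5 : Fin 6) : ℕ) : ℝ) = 5 := by norm_num
      rw [this]; ring
    have e2 : s - 1 + ((0 : ℕ) : ℝ) = s - 1 := by push_cast; ring
    rw [e2] at this
    show P (s + ((5 : Fin 6) : ℕ)) = h (5 + 1)
    rw [e, h6, this]
    rfl

theorem Ost_rot_cl {κ : Type*} (P : ℝ → Set κ) (hper : ∀ t, P (t + 6) = P t)
    {h : Fin 6 → Set κ} {u : ℝ} (hu : u ∈ closure (Ost P h)) :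
    u + 1 ∈ closure (Ost P (fun k : Fin 6 => h (k + 1))) := by
  have hc : Continuous fun s : ℝ => s + 1 := continuous_id.add continuous_const
  exact map_mem_closure (f := fun s : ℝ => s + 1) hc hu fun s hs => Ost_rot P hper hs

/-- **Closing.**  A label constant on the accumulating states at every time of a window of length
one is not changed by the rotation. -/
theorem closing {κ : Type*} [Finite κ] (P : ℝ → Set κ) (hcl : ∀ c, IsClosed {t | c ∈ P t})
    (hper : ∀ t, P (t + 6) = P t) (f : (Fin 6 → Set κ) → β) {p : ℝ}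
    (hc : ∀ u ∈ Icc p (p + 1), ∀ h h', u ∈ closure (Ost P h) → u ∈ closure (Ost P h') →
      f h = f h') {h : Fin 6 → Set κ} (hp : p ∈ closure (Ost P h)) :
    f (fun k => h (k + 1)) = f h :=
  window (Ost P) (Ost_dense P hcl) f isPreconnected_Icc hc (s := p + 1) (t := p)
    ⟨by linarith, le_rfl⟩ ⟨le_rfl, by linarith⟩ (Ost_rot_cl P hper hp) hp

/-- No potential which is changed by the rotation is locally constant. -/
theorem no_potential {κ : Type*} [Finite κ] (P : ℝ → Set κ) (hcl : ∀ c, IsClosed {t | c ∈ P t})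
    (hper : ∀ t, P (t + 6) = P t) (f : (Fin 6 → Set κ) → β)
    (hrot : ∀ h, (Ost P h).Nonempty → f (fun k => h (k + 1)) ≠ f h) :
    ∃ u, ∃ h h', u ∈ closure (Ost P h) ∧ u ∈ closure (Ost P h') ∧ f h ≠ f h' := by
  by_contra hno
  push Not at hno
  obtain ⟨t, -, ht⟩ := (Ost_dense (n := 6) P hcl).inter_open_nonempty univ isOpen_univ ⟨0, trivial⟩
  obtain ⟨h, hh⟩ := mem_iUnion.1 ht
  exact hrot h ⟨t, hh⟩ (closing P hcl hper f (fun u _ => hno u) (subset_closure hh))

/-- The generic letters are two-sets if the two-sets are dense. -/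
theorem Ost_two {n : ℕ} {κ : Type*} (P : ℝ → Set κ)
    (hthin : Dense {t | (P t).ncard = 2}) {h : Fin n → Set κ} {t : ℝ} (ht : t ∈ Ost P h)
    (k : Fin n) : (h k).ncard = 2 := by
  have h1 : {s : ℝ | P (s + (k : ℕ)) = h k} ∈ 𝓝 t := by
    filter_upwards [ht] with s hs using hs k
  obtain ⟨V, hVs, hVo, hVt⟩ := mem_nhds_iff.1 h1
  have hne : ((fun s : ℝ => s - (k : ℕ)) ⁻¹' V).Nonempty := ⟨t + (k : ℕ), by simpa using hVt⟩
  have hop : IsOpen ((fun s : ℝ => s - (k : ℕ)) ⁻¹' V) :=
    hVo.preimage (continuous_id.sub continuous_const)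
  obtain ⟨s, hs, hs2⟩ := hthin.inter_open_nonempty _ hop hne
  have h3 : P (s - (k : ℕ) + (k : ℕ)) = h k := hVs hs
  rw [sub_add_cancel] at h3
  rw [← h3]; exact hs2

end Vale.Agent.P032.S5.H790
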