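import Vale.Agent.P032.S5.H360.Silent
import Vale.Agent.P032.S5.H483.IrrZ

/-!
# P032: near a pentagonal point a broken pair only occurs with all five colours
-/

open Set Filter Topology Metric

noncomputable section

namespace Vale.Agent.P032.Six

variable {U : Fin 6 → Set ℂ} {T : ℂ → Set (Fin 6)}

namespace Irr

/-- the pentagon: `T z` is the range of the injective `q : Fin 5 → Fin 6` and the pairs
`{q i, q (i + 2)}` are palettes of points of the unit circle -/
structure Pen (T : ℂ → Set (Fin 6)) (z : ℂ) (q : Fin 5 → Fin 6) : Prop where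
  inj : Function.Injective q
  rng : T z = range q
  brk : ∀ i, ∃ y, dist y z = 1 ∧ T y = {q i, q (i + 2)}

/-- near `z`: a broken pair occurs only with all colours of `z` -/
theorem Pen.nz (h : Irr U T)
    (hmin : ∀ z, 4 ≤ (T z).ncard → ∀ s, s ⊆ T z → s ≠ T z →
      ¬ ∀ᶠ w in 𝓝 z, ∃ i ∈ s, w ∈ U i ∨ (w ∈ XX U ∧ i ∈ Pal U w)) {z : ℂ}
    {q : Fin 5 → Fin 6} (P : Pen T z q) :
    ∀ᶠ w in 𝓝 z, ∀ i, q i ∈ T w → q (i + 2) ∈ T w → T w = T z := by
  choose y hy using P.brk
  have hev : ∀ᶠ w in 𝓝 z, ∀ i, T (y i + (w - z)) ⊆ {q i, q (i + 2)} ∧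
      (({q i, q (i + 2)} : Set (Fin 6)) ⊆ T w → 4 ≤ (T w).ncard) := by
    rw [eventually_all]
    intro i
    have ht : Tendsto (fun w => y i + (w - z)) (𝓝 z) (𝓝 (y i)) := by
      have hc : Continuous fun w : ℂ => y i + (w - z) := by fun_prop
      have := hc.tendsto z
      simpa using this
    filter_upwards [ht.eventually (h.nhd (y i)), h.no_layer (hy i).1] with w h2 h3
    rw [(hy i).2] at h2 h3
    exact ⟨h2, h3⟩
  have hz5 : (T z).ncard = 5 := by
    rw [P.rng, ← image_univ, Set.ncard_image_of_injective _ P.inj, Set.ncard_univ,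
      Nat.card_eq_fintype_card, Fintype.card_fin]
  filter_upwards [h.nhd z, hev] with w h1 h2 i hi hi2
  by_contra hne
  have h4 : 4 ≤ (T w).ncard := (h2 i).2 (by rintro m (rfl | rfl) <;> assumption)
  have hlt : (T w).ncard < 5 := by
    rw [← hz5]
    exact Set.ncard_lt_ncard (h1.ssubset_of_ne hne) (Set.toFinite _)
  -- the missing colour
  obtain ⟨m, hm⟩ : ∃ m : Fin 5, q m ∉ T w := by
    by_contra hcon
    push Not at hcon
    apply hne
    refine Subset.antisymm h1 ?_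
    rw [P.rng]
    rintro _ ⟨j, rfl⟩
    exact hcon j
  have hother : ∀ j : Fin 5, j ≠ m → q j ∈ T w := by
    intro j hj
    by_contra hcon
    have h5 : T w ⊆ T z \ {q m, q j} := by
      intro c hc
      refine ⟨h1 hc, ?_⟩
      rintro (rfl | rfl)
      · exact hm hc
      · exact hcon hc
    have h6 := Set.ncard_le_ncard h5 (Set.toFinite _)
    have h7 : ({q m, q j} : Set (Fin 6)) ⊆ T z := by
      rw [P.rng]; rintro _ (rfl | rfl) <;> exact mem_range_self _
    rw [Set.ncard_sdiff h7 (Set.toFinite _), Set.ncard_pair (P.inj.ne hj.symm), hz5] at h6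
    omega
  obtain ⟨e1, e2, e3, e4, e5, e6, e7, e8⟩ := (by decide : ∀ m : Fin 5, m + 2 ≠ m ∧ m + 4 ≠ m ∧
    m + 1 ≠ m ∧ m + 4 ≠ m + 2 ∧ m + 1 ≠ m + 2 ∧ m + 2 + 2 = m + 4 ∧ m + 4 + 2 = m + 1 ∧
    m + 1 ≠ m + 4) m
  have hd : ∀ j, dist (y j + (w - z)) w = 1 := by
    intro j
    have h6 := (hy j).1
    rw [dist_eq_norm] at h6 ⊢
    rw [← h6]; congr 1; ring
  have hT1 : T (y (m + 2) + (w - z)) = {q (m + 2), q (m + 4)} := by
    have h5 := (h2 (m + 2)).1
    rw [e6] at h5
    exact h.pair_of_sub (hd _) (h.sub w (hother _ e1)) (h.sub w (hother _ e2)) h5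
  have hT2 : T (y (m + 4) + (w - z)) = {q (m + 4), q (m + 1)} := by
    have h5 := (h2 (m + 4)).1
    rw [e7] at h5
    exact h.pair_of_sub (hd _) (h.sub w (hother _ e2)) (h.sub w (hother _ e3)) h5
  have h4' : (T w).ncard = 4 := by omega
  have hne1 : q (m + 2) ≠ q (m + 4) := P.inj.ne e4.symm
  have hne2 : q (m + 4) ≠ q (m + 1) := P.inj.ne e8.symm
  rcases h.pairs_disjoint hmin h4' (hd (m + 2)) (hd (m + 4))
    (by rw [hT1]; rintro _ (rfl | rfl) <;> [exact hother _ e1; exact hother _ e2])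
    (by rw [hT2]; rintro _ (rfl | rfl) <;> [exact hother _ e2; exact hother _ e3])
    (by rw [hT1, Set.ncard_pair hne1]) (by rw [hT2, Set.ncard_pair hne2]) with h5 | h5
  · rw [hT1, hT2] at h5
    have h6 : q (m + 1) ∈ ({q (m + 2), q (m + 4)} : Set (Fin 6)) := by rw [h5]; simp
    rcases h6 with h6 | h6
    · exact e5 (P.inj h6)
    · exact e8 (P.inj h6)
  · rw [hT1, hT2] at h5
    exact Set.disjoint_left.1 h5 (show q (m + 4) ∈ ({q (m + 2), q (m + 4)} : Set (Fin 6)) by simp)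
      (by simp)

theorem Pen.xx (h : Irr U T) {z : ℂ} {q : Fin 5 → Fin 6} (P : Pen T z q) : z ∈ XX U := by
  refine h.XX_of_four ?_
  rw [P.rng, ← image_univ, Set.ncard_image_of_injective _ P.inj, Set.ncard_univ,
    Nat.card_eq_fintype_card, Fintype.card_fin]
  norm_num

theorem Pen.mem {z : ℂ} {q : Fin 5 → Fin 6} (P : Pen T z q) (i : Fin 5) : q i ∈ T z := by
  rw [P.rng]; exact mem_range_self i

end Irr

end Vale.Agent.P032.Six
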